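import Vale.Agent.P074.Defs
import Vale.Agent.P074.Counter

open MeasureTheory Vale.Agent.P074

/-- For every `d ≥ 2` the largest admissible exponent exists and equals `1/3`; in particular
`α*_d = 1/3`, the supremum is attained and `1/2` is not admissible.  The last clause records that
optimal maps exist, so that the definition of admissibility is not vacuous. -/
theorem Vale.Agent.Results.P074.SharpThird.result (d : ℕ) (hd : 2 ≤ d) :
    IsGreatest {α : ℝ | Admissible d α} (1 / 3) ∧
    sSup {α : ℝ | Admissible d α} = 1 / 3 ∧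
    ¬ Admissible d (1 / 2) ∧
    ∀ K Y : Set (EuclideanSpace ℝ (Fin d)), IsCompact K → Convex ℝ K → (interior K).Nonempty →
      IsCompact Y → ∀ μ : Measure (EuclideanSpace ℝ (Fin d)), IsProbabilityMeasure μ →
        μ (compl Y) = 0 → ∃ T, IsOptimalMap (unif K) μ T := by
  have h : IsGreatest {α : ℝ | Admissible d α} (1 / 3) :=
    ⟨admissible_third d, fun α hα => not_lt.mp fun hlt => not_admissible_of_gt hd hlt hα⟩
  exact ⟨h, h.csSup_eq, not_admissible_of_gt hd (by norm_num),
    fun K Y hK hKc hKi hY μ _ hμ => exists_isOptimalMap hK hKc hKi hY hμ⟩
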